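import Crest.Agent.R192.Defs

/-! R192/E/Calc: directional derivatives and smooth parametric integrals (also useful for other blocks). -/

set_option autoImplicit false

open MeasureTheory Complex Filter Topology
open scoped ContDiff

noncomputable section

namespace Crest.Agent.R192.E

section Gen
variable {A B : Type} [NormedAddCommGroup A] [NormedSpace ℝ A] [NormedAddCommGroup B] [NormedSpace ℝ B]

/-- directional derivative -/
def D (u : B) (F : B → ℂ) : B → ℂ := fun p => fderiv ℝ F p u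

theorem D_smooth {F : B → ℂ} (hF : ContDiff ℝ ∞ F) (u : B) : ContDiff ℝ ∞ (D u F) :=
  (contDiff_infty_iff_fderiv.1 hF).2.clm_apply contDiff_const

theorem diff {F : B → ℂ} (hF : ContDiff ℝ ∞ F) : Differentiable ℝ F := (contDiff_infty_iff_fderiv.1 hF).1

theorem D_add (u u' : B) (F : B → ℂ) (p : B) : D (u + u') F p = D u F p + D u' F p := map_add _ _ _

theorem D_comp {F : B → ℂ} {φ : A → B} {L : A →L[ℝ] B} {a : A} (hF : DifferentiableAt ℝ F (φ a))
    (hφ : HasFDerivAt φ L a) (u : A) : fderiv ℝ (fun y => F (φ y)) a u = D (L u) F (φ a) := by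
  have h := (hF.hasFDerivAt.comp a hφ).fderiv
  rw [show (fun y => F (φ y)) = F ∘ φ from rfl, h]
  rfl

theorem D_hasDerivAt {F : B → ℂ} {φ : ℝ → B} {u : B} {s : ℝ} (hF : DifferentiableAt ℝ F (φ s))
    (hφ : HasDerivAt φ u s) : HasDerivAt (fun t => F (φ t)) (D u F (φ s)) s :=
  hF.hasFDerivAt.comp_hasDerivAt s hφ

theorem D_comm {F : B → ℂ} (hF : ContDiff ℝ ∞ F) (u u' p : B) : D u (D u' F) p = D u' (D u F) p := by
  have hd : DifferentiableAt ℝ (fderiv ℝ F) p :=
    (contDiff_infty_iff_fderiv.1 (contDiff_infty_iff_fderiv.1 hF).2).1 p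
  have e : ∀ a b : B, D a (D b F) p = fderiv ℝ (fderiv ℝ F) p a b := fun a b => by
    unfold D
    rw [fderiv_clm_apply hd (differentiableAt_const b)]
    simp
  rw [e, e]
  exact ((contDiff_infty.1 hF 2).contDiffAt.isSymmSndFDerivAt (by
    rw [minSmoothness_of_isRCLikeNormedField]; exact le_rfl)) u u'

theorem D_lin {F₁ F₂ F₃ : B → ℂ} (h₁ : ContDiff ℝ ∞ F₁) (h₂ : ContDiff ℝ ∞ F₂) (h₃ : ContDiff ℝ ∞ F₃)
    (a b : ℂ) (u : B) : D u (fun p => a * F₁ p + b * F₂ p + F₃ p) =
      fun p => a * D u F₁ p + b * D u F₂ p + D u F₃ p := by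
  funext p
  have h := ((((diff h₁ p).hasFDerivAt.const_mul a).fun_add ((diff h₂ p).hasFDerivAt.const_mul b)).fun_add
    (diff h₃ p).hasFDerivAt).fderiv
  unfold D
  rw [h]
  simp

variable [FiniteDimensional ℝ B]

theorem hasFDerivAt_int {f : ℝ × B → ℂ} (hf : ContDiff ℝ ∞ f) (x₀ : B) :
    HasFDerivAt (fun x => ∫ θ in (0 : ℝ)..1, f (θ, x))
      (∫ θ in (0 : ℝ)..1, (fderiv ℝ f (θ, x₀)).comp (ContinuousLinearMap.inr ℝ ℝ B)) x₀ := by
  have hc : Continuous fun p : ℝ × B => (fderiv ℝ f p).comp (ContinuousLinearMap.inr ℝ ℝ B) :=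
    (contDiff_infty_iff_fderiv.1 hf).2.continuous.clm_comp continuous_const
  have hf0 := hf.continuous
  have := FiniteDimensional.proper_real B
  obtain ⟨C, hC⟩ := ((isCompact_Icc (a := (0 : ℝ)) (b := 1)).prod
    (isCompact_closedBall x₀ 1)).exists_bound_of_continuousOn hc.continuousOn
  refine intervalIntegral.hasFDerivAt_integral_of_dominated_of_fderiv_le (μ := volume)
    (F := fun x θ => f (θ, x)) (F' := fun x θ => (fderiv ℝ f (θ, x)).comp (ContinuousLinearMap.inr ℝ ℝ B))
    (bound := fun _ => C) (Metric.closedBall_mem_nhds x₀ one_pos)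
    (Eventually.of_forall fun x => Continuous.aestronglyMeasurable (by fun_prop))
    (Continuous.intervalIntegrable (by fun_prop) _ _)
    ((hc.comp (continuous_id.prodMk continuous_const)).aestronglyMeasurable)
    (Eventually.of_forall fun s hs x hx => ?_) intervalIntegrable_const
    (Eventually.of_forall fun s _ x _ => ?_)
  · rw [Set.uIoc_of_le zero_le_one] at hs
    exact hC (s, x) ⟨Set.Ioc_subset_Icc_self hs, hx⟩
  · exact (diff hf (s, x)).hasFDerivAt.comp x (hasFDerivAt_prodMk_right s x)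

theorem fderiv_int {f : ℝ × B → ℂ} (hf : ContDiff ℝ ∞ f) (x₀ u : B) :
    fderiv ℝ (fun x => ∫ θ in (0 : ℝ)..1, f (θ, x)) x₀ u = ∫ θ in (0 : ℝ)..1, D (0, u) f (θ, x₀) := by
  have hc : Continuous fun θ : ℝ => (fderiv ℝ f (θ, x₀)).comp (ContinuousLinearMap.inr ℝ ℝ B) :=
    ((contDiff_infty_iff_fderiv.1 hf).2.continuous.comp
      (continuous_id.prodMk continuous_const)).clm_comp continuous_const
  rw [(hasFDerivAt_int hf x₀).fderiv, ContinuousLinearMap.intervalIntegral_apply (hc.intervalIntegrable _ _)]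
  rfl

theorem contDiff_int {f : ℝ × B → ℂ} (hf : ContDiff ℝ ∞ f) :
    ContDiff ℝ ∞ fun x => ∫ θ in (0 : ℝ)..1, f (θ, x) := by
  refine contDiff_infty.2 fun k => ?_
  induction k generalizing f with
  | zero =>
    exact contDiff_zero.2 (Differentiable.continuous (𝕜 := ℝ) fun x => (hasFDerivAt_int hf x).differentiableAt)
  | succ k ih =>
    rw [Nat.cast_succ, contDiff_succ_iff_fderiv_apply]
    refine ⟨fun x => (hasFDerivAt_int hf x).differentiableAt, fun h => absurd h (by simp), fun u => ?_⟩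
    simp only [fderiv_int hf]
    exact ih (D_smooth hf _)

end Gen

/-- chain rule for the maps `y ↦ y ∘ π + c` -/
theorem pd_affine {N M : ℕ} (π : Fin N → Fin M) (c : Fin N → ℝ) {f : (Fin N → ℝ) → ℂ} {v : Fin M → ℝ}
    (hf : DifferentiableAt ℝ f fun l => v (π l) + c l) (j : Fin M) :
    pd j (fun y => f fun l => y (π l) + c l) v = ∑ l with π l = j, pd l f fun l => v (π l) + c l := by
  have hφ : HasFDerivAt (fun (y : Fin M → ℝ) l => y (π l) + c l)
      (ContinuousLinearMap.pi fun l => ContinuousLinearMap.proj (R := ℝ) (φ := fun _ : Fin M => ℝ) (π l)) v :=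
    hasFDerivAt_pi.2 fun l => (hasFDerivAt_apply (π l) v).add_const (c l)
  unfold pd
  rw [D_comp hf hφ, D, ← map_sum]
  congr 1
  funext l
  simp only [ContinuousLinearMap.pi_apply, ContinuousLinearMap.proj_apply, Finset.sum_apply, Pi.single_apply,
    Finset.sum_ite_eq, Finset.mem_filter, Finset.mem_univ, true_and]

end Crest.Agent.R192.E
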