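import Crest.Agent.R192.E.Calc
import Crest.Agent.R192.Br
import Crest.Agent.R192.Iface

/-! R192/E/Main: block E, the pairing one-form. -/

set_option autoImplicit false

open MeasureTheory Complex Filter Topology
open scoped ContDiff

noncomputable section

namespace Crest.Agent.R192

namespace E

abbrev PP (N : ℕ) := (ℝ × (Fin N → ℝ)) × (ℝ × (Fin N → ℝ))

section Abs
variable {N : ℕ} {F : PP N → ℂ}

/-- integral along the diagonal -/
def J (F : PP N → ℂ) (v : Fin N → ℝ) : ℂ := ∫ σ in (0 : ℝ)..1, F ((σ, v), (σ, v))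

def e1 (i : Fin N) : PP N := ((0, Pi.single i 1), 0)
def e2 (i : Fin N) : PP N := (0, (0, Pi.single i 1))

theorem diag_smooth (hF : ContDiff ℝ ∞ F) : ContDiff ℝ ∞ fun q : ℝ × (Fin N → ℝ) => F (q, q) :=
  hF.comp (contDiff_id.prodMk contDiff_id)

theorem J_smooth (hF : ContDiff ℝ ∞ F) : ContDiff ℝ ∞ (J F) := contDiff_int (diag_smooth hF)

theorem diag_int (hF : ContDiff ℝ ∞ F) (v : Fin N → ℝ) :
    IntervalIntegrable (fun σ : ℝ => F ((σ, v), (σ, v))) volume 0 1 :=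
  ((diag_smooth hF).continuous.comp (continuous_id.prodMk continuous_const)).intervalIntegrable _ _

theorem J_lin {F₁ F₂ F₃ : PP N → ℂ} (h₁ : ContDiff ℝ ∞ F₁) (h₂ : ContDiff ℝ ∞ F₂) (h₃ : ContDiff ℝ ∞ F₃)
    (a b : ℂ) (v : Fin N → ℝ) :
    J (fun p => a * F₁ p + b * F₂ p + F₃ p) v = a * J F₁ v + b * J F₂ v + J F₃ v := by
  unfold J
  rw [intervalIntegral.integral_add (((diag_int h₁ v).const_mul a).add ((diag_int h₂ v).const_mul b))
    (diag_int h₃ v), intervalIntegral.integral_add ((diag_int h₁ v).const_mul a) ((diag_int h₂ v).const_mul b),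
    intervalIntegral.integral_const_mul, intervalIntegral.integral_const_mul]

theorem pd_snd (hF : ContDiff ℝ ∞ F) (q : ℝ × (Fin N → ℝ)) (σ : ℝ) (v : Fin N → ℝ) (l : Fin N) :
    pd l (fun v' => F (q, (σ, v'))) v = D (e2 l) F (q, (σ, v)) :=
  D_comp (diff hF _) ((hasFDerivAt_prodMk_right q (σ, v)).comp v (hasFDerivAt_prodMk_right σ v)) _

theorem pd_fst (hF : ContDiff ℝ ∞ F) (q : ℝ × (Fin N → ℝ)) (σ : ℝ) (v : Fin N → ℝ) (l : Fin N) :
    pd l (fun v' => F ((σ, v'), q)) v = D (e1 l) F ((σ, v), q) :=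
  D_comp (diff hF _) ((hasFDerivAt_prodMk_left (σ, v) q).comp v (hasFDerivAt_prodMk_right σ v)) _

theorem deriv_fst (hF : ContDiff ℝ ∞ F) (q : ℝ × (Fin N → ℝ)) (σ : ℝ) (v : Fin N → ℝ) :
    deriv (fun s => F ((s, v), q)) σ = D (((1, 0), 0) : PP N) F ((σ, v), q) :=
  (D_hasDerivAt (φ := fun s => (((s, v), q) : PP N)) (diff hF _)
    (((hasDerivAt_id' σ).prodMk (hasDerivAt_const σ v)).prodMk (hasDerivAt_const σ q))).deriv

theorem pd_J (hF : ContDiff ℝ ∞ F) (v : Fin N → ℝ) (i : Fin N) :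
    pd i (J F) v = J (D (e1 i) F) v + J (D (e2 i) F) v := by
  unfold pd J
  rw [fderiv_int (diag_smooth hF), ← intervalIntegral.integral_add (diag_int (D_smooth hF _) v)
    (diag_int (D_smooth hF _) v)]
  refine intervalIntegral.integral_congr fun σ _ => ?_
  have h := D_comp (φ := fun q : ℝ × (Fin N → ℝ) => ((q, q) : PP N)) (a := (σ, v)) (diff hF _)
    ((hasFDerivAt_id (σ, v)).prodMk (hasFDerivAt_id (σ, v))) (0, Pi.single i 1)
  rw [← D_add]
  refine h.trans ?_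
  simp [e1, e2]

theorem curv (hF : ContDiff ℝ ∞ F) (v : Fin N → ℝ) (i l : Fin N) :
    J (D (e1 i) (D (e2 l) F)) v - J (D (e1 l) (D (e2 i) F)) v =
      pd i (J (D (e2 l) F)) v - pd l (J (D (e2 i) F)) v := by
  rw [pd_J (D_smooth hF _), pd_J (D_smooth hF _), funext (D_comm hF (e2 i) (e2 l))]
  ring

theorem sum_J (hF : ContDiff ℝ ∞ F) (v : Fin N → ℝ)
    (ht : ∀ q σ s, F (q, (σ + s, fun i => v i + s)) = F (q, (σ, v)))
    (hp : F ((1, v), (1, v)) = F ((0, v), (0, v))) :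
    ∑ l, J (D (e2 l) F) v = J (D (((1, 0), 0) : PP N) F) v := by
  have h1 : ∀ σ, D ((0, (1, 1)) : PP N) F ((σ, v), (σ, v)) = 0 := fun σ => by
    have hφ : HasDerivAt (fun s : ℝ => (((σ, v), (σ + s, fun i => v i + s)) : PP N)) (0, (1, 1)) 0 :=
      (hasDerivAt_const _ _).prodMk (((hasDerivAt_id' 0).const_add σ).prodMk
        (hasDerivAt_pi.2 fun i => (hasDerivAt_id' 0).const_add (v i)))
    have h := D_hasDerivAt (diff hF _) hφ
    simp only [ht, add_zero] at h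
    exact h.unique (hasDerivAt_const _ _)
  have h2 : J (D (((1, 0), (1, 0)) : PP N) F) v = 0 := by
    unfold J
    rw [intervalIntegral.integral_eq_sub_of_hasDerivAt (f := fun σ => F ((σ, v), (σ, v)))
      (fun σ _ => D_hasDerivAt (φ := fun s => (((s, v), (s, v)) : PP N)) (diff hF _)
        (((hasDerivAt_id' σ).prodMk (hasDerivAt_const σ v)).prodMk
          ((hasDerivAt_id' σ).prodMk (hasDerivAt_const σ v)))) (diag_int (D_smooth hF _) v), hp, sub_self]
  have h3 : (∑ l, e2 l : PP N) + ((1, 0), (1, 0)) = ((1, 0), 0) + (0, (1, 1)) := by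
    have : (∑ l, e2 l : PP N) = (0, (0, 1)) := by
      refine Prod.ext ?_ (Prod.ext ?_ ?_)
      · simp [e2, Prod.fst_sum]
      · simp [e2, Prod.fst_sum, Prod.snd_sum]
      · funext j
        simp [e2, Prod.snd_sum, Finset.sum_apply, Pi.single_apply]
    rw [this]
    simp
  rw [← add_zero (∑ l, J (D (e2 l) F) v), ← h2]
  unfold J
  rw [← intervalIntegral.integral_finsetSum fun l _ => diag_int (D_smooth hF _) v,
    ← intervalIntegral.integral_add (diag_int (ContDiff.sum fun l _ => D_smooth hF (e2 l)) v)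
      (diag_int (D_smooth hF _) v)]
  refine intervalIntegral.integral_congr fun σ _ => ?_
  have h4 := congrArg (fun u => D u F ((σ, v), (σ, v))) h3
  simp only [D_add, h1, add_zero] at h4
  rw [← h4]
  simp only [D, map_sum]

end Abs

variable {G : Type} [Group G] {g : G} {Ψ : Pth G → Pth G → ℂ} {n : ℕ}

/-- `Phi` as a function of one variable -/
def Fn (g : G) (Ψ : Pth G → Pth G → ℂ) (x : Fin (n + 1) → G) : PP (n + 1) → ℂ :=
  fun p => Phi g Ψ x p.1.1 p.1.2 p.2.1 p.2.2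

theorem Fn_smooth (h : Nice g Ψ) (x : Fin (n + 1) → G) : ContDiff ℝ ∞ (Fn g Ψ x) := h.smooth n x

theorem alp_eq (h : Nice g Ψ) (x : Fin (n + 1) → G) (l : Fin (n + 1)) :
    (fun v => alp g Ψ n x v l) = J (D (e2 l) (Fn g Ψ x)) := by
  funext v
  exact intervalIntegral.integral_congr fun σ _ => pd_snd (h.smooth n x) (σ, v) σ v l

theorem Dv_eq (h : Nice g Ψ) (x : Fin (n + 1) → G) (v : Fin (n + 1) → ℝ) :
    Dv g Ψ x v = J (D (((1, 0), 0) : PP (n + 1)) (Fn g Ψ x)) v :=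
  intervalIntegral.integral_congr fun σ _ => deriv_fst (h.smooth n x) (σ, v) σ v

theorem Mx_eq (h : Nice g Ψ) (x : Fin (n + 1) → G) (v : Fin (n + 1) → ℝ) (i l : Fin (n + 1)) :
    Mx g Ψ x v i l = J (D (e1 i) (D (e2 l) (Fn g Ψ x))) v := by
  refine intervalIntegral.integral_congr fun σ _ => ?_
  have e : (fun w => pd l (fun w' => Phi g Ψ x σ w σ w') v) =
      fun w => D (e2 l) (Fn g Ψ x) ((σ, w), (σ, v)) := funext fun w => pd_snd (h.smooth n x) (σ, w) σ v l
  rw [e]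
  exact pd_fst (D_smooth (h.smooth n x) _) (σ, v) σ v i

theorem Phi_per (h : Nice g Ψ) (x : Fin (n + 1) → G) (σ : ℝ) (v : Fin (n + 1) → ℝ) (σ' : ℝ)
    (v' : Fin (n + 1) → ℝ) : Phi g Ψ x (σ + 1) v (σ' + 1) v' = Phi g Ψ x σ v σ' v' := by
  unfold Phi
  rw [bs_per, bs_per, h.per _ _ (homog_bs g x σ v) (homog_bs g x σ' v')]

theorem Phi_diff (h : Nice g Ψ) (x : Fin (n + 1) → G) (σ : ℝ) (v : Fin (n + 1) → ℝ) (σ' : ℝ) :
    Differentiable ℝ fun v' => Phi g Ψ x σ v σ' v' :=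
  (diff (h.smooth n x)).comp (f := fun v' => (((σ, v), (σ', v')) : PP (n + 1))) (by fun_prop)

theorem alp_trans (h : Nice g Ψ) (x : Fin (n + 1) → G) (v : Fin (n + 1) → ℝ) (s : ℝ) :
    alp g Ψ n x (fun i => v i + s) = alp g Ψ n x v := by
  funext l
  have hper : Function.Periodic (fun σ => pd l (fun v' => Phi g Ψ x σ v σ v') v) 1 := fun σ => by
    simp only [Phi_per h]
  have e : ∀ σ, pd l (fun v' => Phi g Ψ x σ (fun i => v i + s) σ v') (fun i => v i + s) =
      pd l (fun v' => Phi g Ψ x (σ - s) v (σ - s) v') v := fun σ => by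
    unfold pd
    have h1 := fderiv_comp_add_right (𝕜 := ℝ) (f := fun v' => Phi g Ψ x σ (fun i => v i + s) σ v') (x := v)
      (fun _ => s)
    have h2 : (fun y => Phi g Ψ x σ (fun i => v i + s) σ (y + fun _ => s)) =
        fun y => Phi g Ψ x (σ - s) v (σ - s) y := funext fun y => by
      unfold Phi
      rw [bs_trans, ← bs_trans g x σ s y]
      rfl
    rw [h2] at h1
    rw [h1]
    rfl
  unfold alp
  simp only [e]
  rw [intervalIntegral.integral_comp_sub_right (fun σ => pd l (fun v' => Phi g Ψ x σ v σ v') v) s]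
  have h3 := hper.intervalIntegral_add_eq (0 - s) 0
  rwa [show 0 - s + 1 = 1 - s by ring, zero_add] at h3

theorem alp_rot (h : Nice g Ψ) (x : Fin (n + 1) → G) (v : Fin (n + 1) → ℝ) (l : Fin (n + 1)) :
    alp g Ψ n (rotX g x) (rotV v) l = alp g Ψ n x v (l + 1) := by
  have e : ∀ y : Fin (n + 1) → ℝ,
      (fun j => y (j + 1) + if j = Fin.last n then 1 else 0) = rotV y := fun y => by
    funext j
    unfold rotV
    split_ifs with hj
    · rw [hj, Fin.last_add_one]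
    · rw [add_zero]
  refine intervalIntegral.integral_congr fun σ _ => ?_
  have h1 := pd_affine (fun j : Fin (n + 1) => j + 1) (fun j => if j = Fin.last n then 1 else 0) (v := v)
    (Phi_diff h (rotX g x) σ (rotV v) σ _) (l + 1)
  simp only [e, add_left_inj, Finset.filter_eq', Finset.mem_univ, if_true, Finset.sum_singleton] at h1
  refine h1.symm.trans ?_
  simp only [Phi, bs_rot]

theorem alp_face (h : Nice g Ψ) (a : Fin (n + 2)) (x : Fin (n + 2) → G) (v : Fin (n + 1) → ℝ)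
    (j : Fin (n + 1)) :
    alp g Ψ n (faceX a x) v j = ∑ l with proj a l = j, alp g Ψ (n + 1) x (faceV a v) l := by
  have e : ∀ l, alp g Ψ (n + 1) x (faceV a v) l =
      ∫ σ in (0 : ℝ)..1, D (e2 l) (Fn g Ψ x) ((σ, faceV a v), (σ, faceV a v)) := fun l =>
    congrFun (alp_eq h x l) _
  simp only [e]
  rw [← intervalIntegral.integral_finsetSum fun l _ => diag_int (D_smooth (Fn_smooth h x) _) _]
  refine intervalIntegral.integral_congr fun σ _ => ?_
  have e' : ∀ y : Fin (n + 1) → ℝ, (fun l => y (proj a l) +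
      if l = Fin.last (n + 1) ∧ a = Fin.last (n + 1) then 1 else 0) = faceV a y := fun _ => rfl
  have h1 := pd_affine (proj a) (fun l => if l = Fin.last (n + 1) ∧ a = Fin.last (n + 1) then 1 else 0)
    (v := v) (Phi_diff h x σ (faceV a v) σ _) j
  simp only [e'] at h1
  have h2 : (fun v' => Phi g Ψ (faceX a x) σ v σ v') =
      fun v' => Phi g Ψ x σ (faceV a v) σ (faceV a v') := by
    simp only [Phi, bs_face]
  have h3 : ∀ l, pd l (fun v' => Phi g Ψ x σ (faceV a v) σ v') (faceV a v) =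
      D (e2 l) (Fn g Ψ x) ((σ, faceV a v), (σ, faceV a v)) := fun l =>
    pd_snd (Fn_smooth h x) (σ, faceV a v) σ (faceV a v) l
  simp only [h2, h1, h3]

theorem isConn (h : Nice g Ψ) : IsConn g (alp g Ψ) where
  smooth n x l := by
    rw [alp_eq h]
    exact J_smooth (D_smooth (h.smooth n x) _)
  trans _ x v s := alp_trans h x v s
  rot _ x v l := alp_rot h x v l
  face _ a x v j := alp_face h a x v j

theorem sum_alp (h : Nice g Ψ) (x : Fin (n + 1) → G) (v : Fin (n + 1) → ℝ) :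
    ∑ l, alp g Ψ n x v l = Dv g Ψ x v := by
  rw [Dv_eq h, ← sum_J (Fn_smooth h x) v]
  · exact Finset.sum_congr rfl fun l _ => congrFun (alp_eq h x l) v
  · intro q σ s
    simp only [Fn, Phi, bs_trans, add_sub_cancel_right]
  · simpa only [zero_add] using! Phi_per h x 0 v 0 v

end E

open E in
theorem stE : StE := by
  intro G _ g
  refine ⟨fun Ψ h => ⟨isConn h, fun n x v => ⟨sum_alp h x v, fun i l => ?_⟩⟩,
    fun Ψ₁ Ψ₂ Ψ₃ a b h₁ h₂ h₃ => ?_⟩
  · rw [Mx_eq h, Mx_eq h, alp_eq h, alp_eq h]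
    exact curv (h.smooth n x) v i l
  have h : Nice g fun β β' => a * Ψ₁ β β' + b * Ψ₂ β β' + Ψ₃ β β' :=
    ⟨fun n x => ((contDiff_const.mul (h₁.smooth n x)).add (contDiff_const.mul (h₂.smooth n x))).add
      (h₃.smooth n x), fun β β' hβ hβ' => by rw [h₁.per _ _ hβ hβ', h₂.per _ _ hβ hβ', h₃.per _ _ hβ hβ']⟩
  refine ⟨h, fun n x v => ?_⟩
  have s₁ : ContDiff ℝ ∞ (Fn g Ψ₁ x) := h₁.smooth n x
  have s₂ : ContDiff ℝ ∞ (Fn g Ψ₂ x) := h₂.smooth n x
  have s₃ : ContDiff ℝ ∞ (Fn g Ψ₃ x) := h₃.smooth n x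
  have e : Fn g (fun β β' => a * Ψ₁ β β' + b * Ψ₂ β β' + Ψ₃ β β') x =
      fun p => a * Fn g Ψ₁ x p + b * Fn g Ψ₂ x p + Fn g Ψ₃ x p := rfl
  refine ⟨fun l => ?_, ?_, fun i l => ?_⟩
  · rw [congrFun (alp_eq h x l) v, congrFun (alp_eq h₁ x l) v, congrFun (alp_eq h₂ x l) v,
      congrFun (alp_eq h₃ x l) v, e, D_lin s₁ s₂ s₃, J_lin (D_smooth s₁ _) (D_smooth s₂ _) (D_smooth s₃ _)]
  · rw [Dv_eq h, Dv_eq h₁, Dv_eq h₂, Dv_eq h₃, e, D_lin s₁ s₂ s₃,
      J_lin (D_smooth s₁ _) (D_smooth s₂ _) (D_smooth s₃ _)]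
  · rw [Mx_eq h, Mx_eq h₁, Mx_eq h₂, Mx_eq h₃, e, D_lin s₁ s₂ s₃,
      D_lin (D_smooth s₁ _) (D_smooth s₂ _) (D_smooth s₃ _),
      J_lin (D_smooth (D_smooth s₁ _) _) (D_smooth (D_smooth s₂ _) _) (D_smooth (D_smooth s₃ _) _)]

end Crest.Agent.R192
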